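import Vale.Agent.P084.Main

/-!
P084 (Tingley's problem).  Every finite-dimensional real normed space has the Mazur-Ulam property: every
surjective isometry from its unit sphere onto the unit sphere of an arbitrary real normed space is the
restriction of a surjective linear isometry of the spaces.
-/

open Metric Set Module

namespace Vale.Agent.Results.P084.FiniteDimTingley

universe u v

theorem result (X : Type u) [NormedAddCommGroup X] [NormedSpace ℝ X] [FiniteDimensional ℝ X]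
    (Y : Type v) [NormedAddCommGroup Y] [NormedSpace ℝ Y]
    (f : sphere (0 : X) 1 → sphere (0 : Y) 1) (hsurj : Function.Surjective f)
    (hiso : ∀ x y : sphere (0 : X) 1, ‖(f x : Y) - (f y : Y)‖ = ‖(x : X) - (y : X)‖) :
    ∃ T : X ≃ₗᵢ[ℝ] Y, ∀ x : sphere (0 : X) 1, T (x : X) = (f x : Y) := by
  classical
  rcases subsingleton_or_nontrivial X with hX | hX
  · -- trivial case: both spheres are empty
    have hY : Subsingleton Y := by
      refine subsingleton_of_forall_eq 0 fun y => ?_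
      by_contra hy
      have h1 : (‖y‖⁻¹ • y) ∈ sphere (0 : Y) 1 := by
        rw [mem_sphere_zero_iff_norm, norm_smul, norm_inv, norm_norm,
          inv_mul_cancel₀ (norm_ne_zero_iff.mpr hy)]
      obtain ⟨x, -⟩ := hsurj ⟨_, h1⟩
      have h2 : ‖(x : X)‖ = 1 := mem_sphere_zero_iff_norm.mp x.2
      rw [Subsingleton.elim (x : X) 0, norm_zero] at h2
      exact zero_ne_one h2
    refine ⟨⟨(0 : X ≃ₗ[ℝ] Y), fun x => ?_⟩, fun x => Subsingleton.elim _ _⟩
    rw [Subsingleton.elim x 0, map_zero, norm_zero, norm_zero]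
  -- total versions of the maps
  obtain ⟨x0, hx0⟩ : ∃ x : X, ‖x‖ = 1 := exists_norm_eq X zero_le_one
  set F : X → Y := fun x => if h : x ∈ sphere (0 : X) 1 then (f ⟨x, h⟩ : Y) else 0 with hF
  have hFs : ∀ (x : X) (hx : ‖x‖ = 1), F x = (f ⟨x, mem_sphere_zero_iff_norm.mpr hx⟩ : Y) := by
    intro x hx
    have h : x ∈ sphere (0 : X) 1 := mem_sphere_zero_iff_norm.mpr hx
    simp only [hF]
    rw [dif_pos h]
  have hF1 : ∀ x, ‖x‖ = 1 → ‖F x‖ = 1 := by
    intro x hx
    rw [hFs x hx]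
    exact mem_sphere_zero_iff_norm.mp (f _).2
  have hFe : ∀ x y, ‖x‖ = 1 → ‖y‖ = 1 → ‖F x - F y‖ = ‖x - y‖ := by
    intro x y hx hy
    rw [hFs x hx, hFs y hy, hiso]
  have hFsurj : ∀ y : Y, ‖y‖ = 1 → ∃ x : X, ‖x‖ = 1 ∧ F x = y := by
    intro y hy
    obtain ⟨x, hx⟩ := hsurj ⟨y, mem_sphere_zero_iff_norm.mpr hy⟩
    have hx1 : ‖(x : X)‖ = 1 := mem_sphere_zero_iff_norm.mp x.2
    refine ⟨x, hx1, ?_⟩
    rw [hFs _ hx1]
    exact congrArg Subtype.val hx
  -- `Y` is finite-dimensional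
  have hYfd : FiniteDimensional ℝ Y := by
    have hfc : Continuous f := by
      refine (LipschitzWith.of_dist_le_mul (K := 1) fun x y => ?_).continuous
      rw [Subtype.dist_eq, Subtype.dist_eq, dist_eq_norm, dist_eq_norm, hiso]
      simp
    have hcs : IsCompact (univ : Set (sphere (0 : X) 1)) :=
      isCompact_iff_isCompact_univ.mp (isCompact_sphere (0 : X) 1)
    have hcomp : IsCompact (sphere (0 : Y) 1) := by
      have h1 : IsCompact (range fun x => (f x : Y)) := by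
        rw [← image_univ]
        exact hcs.image (continuous_subtype_val.comp hfc)
      have h2 : (range fun x => (f x : Y)) = sphere (0 : Y) 1 := by
        ext y
        constructor
        · rintro ⟨x, rfl⟩
          exact (f x).2
        · intro hy
          obtain ⟨x, hx⟩ := hsurj ⟨y, hy⟩
          exact ⟨x, congrArg Subtype.val hx⟩
      rwa [h2] at h1
    have hball : IsCompact (closedBall (0 : Y) 1) := by
      have h1 : IsCompact ((fun p : ℝ × Y => p.1 • p.2) '' (Icc (0 : ℝ) 1 ×ˢ sphere (0 : Y) 1)) :=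
        (isCompact_Icc.prod hcomp).image (by fun_prop)
      have h2 : closedBall (0 : Y) 1
          ⊆ (fun p : ℝ × Y => p.1 • p.2) '' (Icc (0 : ℝ) 1 ×ˢ sphere (0 : Y) 1) := by
        intro y hy
        by_cases hy0 : y = 0
        · subst hy0
          refine ⟨(0, F x0), ⟨⟨le_rfl, zero_le_one⟩, ?_⟩, by simp⟩
          exact mem_sphere_zero_iff_norm.mpr (hF1 x0 hx0)
        · have hyn : ‖y‖ ≠ 0 := norm_ne_zero_iff.mpr hy0
          refine ⟨(‖y‖, ‖y‖⁻¹ • y), ⟨⟨norm_nonneg _, by simpa using hy⟩, ?_⟩, ?_⟩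
          · rw [mem_sphere_zero_iff_norm, norm_smul, norm_inv, norm_norm, inv_mul_cancel₀ hyn]
          · simp only
            rw [smul_smul, mul_inv_cancel₀ hyn, one_smul]
      exact h1.of_isClosed_subset isClosed_closedBall h2
    exact FiniteDimensional.of_isCompact_closedBall₀ ℝ zero_lt_one hball
  -- the inverse map
  have hGex : ∀ y : Y, ∃ x : X, ‖y‖ = 1 → (‖x‖ = 1 ∧ F x = y) := by
    intro y
    by_cases hy : ‖y‖ = 1
    · obtain ⟨x, hx⟩ := hFsurj y hy
      exact ⟨x, fun _ => hx⟩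
    · exact ⟨0, fun h => absurd h hy⟩
  choose G hG using hGex
  have hG1 : ∀ y, ‖y‖ = 1 → ‖G y‖ = 1 := fun y hy => (hG y hy).1
  have hFG : ∀ y, ‖y‖ = 1 → F (G y) = y := fun y hy => (hG y hy).2
  have hGe : ∀ x y, ‖x‖ = 1 → ‖y‖ = 1 → ‖G x - G y‖ = ‖x - y‖ := by
    intro x y hx hy
    rw [← hFe _ _ (hG1 x hx) (hG1 y hy), hFG x hx, hFG y hy]
  have hGF : ∀ x, ‖x‖ = 1 → G (F x) = x := by
    intro x hx
    have h1 : ‖G (F x) - x‖ = 0 := by
      rw [← hFe _ _ (hG1 _ (hF1 x hx)) hx, hFG _ (hF1 x hx), sub_self, norm_zero]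
    rwa [norm_eq_zero, sub_eq_zero] at h1
  -- equal dimensions
  have hdim : finrank ℝ X = finrank ℝ Y :=
    le_antisymm
      (Vale.P084.finrank_le hF1 (fun x y hx hy => (hFe x y hx hy).le)
        (fun x y hx hy => (hGe x y hx hy).le) hGF)
      (Vale.P084.finrank_le hG1 (fun x y hx hy => (hGe x y hx hy).le)
        (fun x y hx hy => (hFe x y hx hy).le) hFG)
  have hpos : 0 < finrank ℝ X := finrank_pos
  obtain ⟨JX⟩ := Vale.P084.exists_john X hpos
  obtain ⟨JY⟩ := Vale.P084.exists_john Y (hdim ▸ hpos)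
  rw [← hdim] at JY
  have h1 := Vale.P084.half JX JY hF1 (fun x y hx hy => (hFe x y hx hy).le)
    (fun x y hx hy => (hGe x y hx hy).le) hGF
  have h2 := Vale.P084.half JY JX hG1 (fun x y hx hy => (hGe x y hx hy).le)
    (fun x y hx hy => (hFe x y hx hy).le) hFG
  have heuc : ∀ x y, ‖x‖ = 1 → ‖y‖ = 1 → ‖JY.e (F x) - JY.e (F y)‖ = ‖JX.e x - JX.e y‖ := by
    intro x y hx hy
    refine le_antisymm (h1 x y hx hy) ?_
    have := h2 (F x) (F y) (hF1 x hx) (hF1 y hy)
    rwa [hGF x hx, hGF y hy] at this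
  obtain ⟨T, hT⟩ := Vale.P084.linear_of_euclidean JX.e JY.e ⟨x0, hx0⟩ hF1 hFsurj heuc
  refine ⟨T, fun x => ?_⟩
  have hx : ‖(x : X)‖ = 1 := mem_sphere_zero_iff_norm.mp x.2
  rw [hT _ hx, hFs _ hx]

end Vale.Agent.Results.P084.FiniteDimTingley
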